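import Vale.Agent.P335.Final

/-!
# The Kannan-Tetali-Vempala conjecture for simple graphs

There is a polynomial `p` such that for every `n ≥ 4` and every graphical degree vector
`d : Fin n → ℕ`, the mixing time of the switch chain on the realisations of `d` is at most
`p(n)`. (The set of times at which the chain is `1/4`-mixed from every start is nonempty and
`tmix d` is its least element.)
-/

namespace Vale.Agent.Results.P335.SwitchChainRapid

open Vale.Agent.P335

theorem result :
    ∃ p : Polynomial ℕ, ∀ n : ℕ, 4 ≤ n → ∀ d : Fin n → ℕ, Graphical d →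
      IsLeast (mixedTimes d) (tmix d) ∧ tmix d ≤ p.eval n := by
  refine ⟨mixPoly, fun n hn d hd => ?_⟩
  have h := mixed_at_Tmix hn d hd
  exact ⟨⟨Nat.sInf_mem ⟨_, h⟩, fun t ht => Nat.sInf_le ht⟩,
    (Nat.sInf_le h).trans (Tmix_le n)⟩

end Vale.Agent.Results.P335.SwitchChainRapid
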